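import Vale.Agent.P091.TOP.H827.Kern
import Vale.Agent.P091.CH.H69.HL
import Vale.Agent.P091.TOP.Props

/-!
# P091 / TOP / H827 / Switch: the truncated kernel against the averaged Petermichl kernel
-/

namespace Vale.Agent.P091.TOP.H827

open Finset Vale.Agent.P091.CH Vale.Agent.P091.CH.H69

variable {K : ℕ}

/-! ## representatives -/

lemma rep (t : X K) : ∃ τ : ℤ, ((τ : ℤ) : X K) = t ∧ nrm t = |(τ : ℝ) / 2 ^ K| ∧
    |(τ : ℝ) / 2 ^ K| ≤ 1 / 2 := by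
  have hx : ((t.val : ℤ) : X K) = t := by
    rw [Int.cast_natCast]
    exact ZMod.natCast_zmod_val t
  have e : (((t.val : ℤ) - round (((t.val : ℤ) : ℝ) / 2 ^ K) * 2 ^ K : ℤ) : ℝ) / 2 ^ K
      = ((t.val : ℤ) : ℝ) / 2 ^ K - round (((t.val : ℤ) : ℝ) / 2 ^ K) := by
    push_cast
    field_simp
  refine ⟨(t.val : ℤ) - round (((t.val : ℤ) : ℝ) / 2 ^ K) * 2 ^ K, ?_, ?_, ?_⟩
  · push_cast
    have h2 : ((2 : ZMod (2 ^ K)) ^ K) = 0 := by
      have := ZMod.natCast_self (2 ^ K)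
      rw [Nat.cast_pow] at this
      exact_mod_cast this
    rw [h2, mul_zero, sub_zero]
    exact_mod_cast hx
  · rw [e]
    have h1 : nrm (((t.val : ℤ) : X K)) = |((t.val : ℤ) : ℝ) / 2 ^ K
        - round (((t.val : ℤ) : ℝ) / 2 ^ K)| := by
      unfold nrm
      rw [ZMod.toAddCircle_intCast, UnitAddCircle.norm_eq]
      push_cast
      rfl
    rw [← h1, hx]
  · rw [e]
    exact abs_sub_round _

lemma ch_int (ξ τ : ℤ) : ch ξ ((τ : ℤ) : X K)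
    = Complex.exp (Complex.I * ((2 * (Real.pi * (ξ * ((τ : ℝ) / 2 ^ K))) : ℝ) : ℂ)) := by
  unfold ch
  have h1 : ((ξ : ZMod (2 ^ K)) * ((τ : ℤ) : X K)) = (((ξ * τ : ℤ)) : ZMod (2 ^ K)) := by
    push_cast; ring
  rw [h1, ZMod.stdAddChar_coe]
  congr 1
  push_cast
  ring

lemma ch_im (ξ τ : ℤ) :
    (ch ξ ((τ : ℤ) : X K)).im = Real.sin (2 * Real.pi * ξ * τ / 2 ^ K) := by
  rw [ch_int, mul_comm, Complex.exp_ofReal_mul_I_im]
  congr 1
  ring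

lemma norm_ch (ξ : ℤ) (t : X K) : ‖ch ξ t‖ = 1 := by
  obtain ⟨τ, hτ, -⟩ := rep t
  rw [← hτ, ch_int, mul_comm, Complex.norm_exp_ofReal_mul_I]

/-! ## the periodised kernel -/

/-- the periodisation of `PP` over `|τ| < B` -/
noncomputable def PPer (K ρ κ : ℕ) (B : ℤ) (t : X K) : ℝ :=
  ∑ τ ∈ (Ioo (-B) B).filter (fun τ : ℤ => ((τ : ℤ) : X K) = t),
    Vale.Agent.P091.PET.PP (2 ^ ρ) (kp K ρ κ) τ

lemma PP_zero_of {ρ κ : ℕ} {B : ℤ} (hB : 4 * 2 ^ ρ * 2 ^ kp K ρ κ ≤ B) {τ : ℤ} (h : B ≤ |τ|) :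
    Vale.Agent.P091.PET.PP (2 ^ ρ) (kp K ρ κ) τ = 0 := by
  refine PP_eq_zero Nat.one_le_two_pow _ ?_
  have h1 : 4 * 2 ^ ρ * 2 ^ kp K ρ κ ≤ |τ| := hB.trans h
  have h2 : (((4 * 2 ^ ρ * 2 ^ kp K ρ κ : ℤ)) : ℝ) ≤ ((|τ| : ℤ) : ℝ) := by exact_mod_cast h1
  push_cast at h2 ⊢
  exact h2

lemma PP_zero_big {ρ κ : ℕ} {τ : ℤ} (h : (2 : ℤ) ^ K ≤ |τ|) :
    Vale.Agent.P091.PET.PP (2 ^ ρ) (kp K ρ κ) τ = 0 := by
  rcases kp_cases K ρ κ with h1 | ⟨h0, -⟩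
  · refine PP_eq_zero Nat.one_le_two_pow _ ?_
    have h2 : ((2 ^ K : ℤ) : ℝ) ≤ ((|τ| : ℤ) : ℝ) := by exact_mod_cast h
    push_cast at h2 ⊢
    refine le_trans ?_ h2
    rw [← h1]
    have h3 : (1:ℝ) ≤ 2 ^ κ := one_le_pow₀ (by norm_num)
    have h4 : (0:ℝ) < 8 * 2 ^ ρ * 2 ^ kp K ρ κ := by positivity
    nlinarith
  · rw [h0]; simp [Vale.Agent.P091.PET.PP]

lemma PPer_eq {ρ κ : ℕ} {B : ℤ} (hB : 4 * 2 ^ ρ * 2 ^ kp K ρ κ ≤ B) {t : X K} {τ : ℤ}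
    (hτ : ((τ : ℤ) : X K) = t) (h2 : |(τ : ℝ) / 2 ^ K| ≤ 1 / 2) :
    PPer K ρ κ B t = Vale.Agent.P091.PET.PP (2 ^ ρ) (kp K ρ κ) τ
      + (Vale.Agent.P091.PET.PP (2 ^ ρ) (kp K ρ κ) ((τ : ℝ) - 2 ^ K)
        + Vale.Agent.P091.PET.PP (2 ^ ρ) (kp K ρ κ) ((τ : ℝ) + 2 ^ K)) := by
  have hn : (0 : ℤ) < 2 ^ K := by positivity
  have hnz : ((2 : ZMod (2 ^ K)) ^ K) = 0 := by
    have := ZMod.natCast_self (2 ^ K)
    rw [Nat.cast_pow] at this
    exact_mod_cast this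
  set F := (Ioo (-B) B).filter (fun τ : ℤ => ((τ : ℤ) : X K) = t) with hF
  set T3 : Finset ℤ := {τ, τ - 2 ^ K, τ + 2 ^ K} with hT3
  have e1 : ∑ σ ∈ T3, Vale.Agent.P091.PET.PP (2 ^ ρ) (kp K ρ κ) σ
      = Vale.Agent.P091.PET.PP (2 ^ ρ) (kp K ρ κ) τ
      + (Vale.Agent.P091.PET.PP (2 ^ ρ) (kp K ρ κ) ((τ : ℝ) - 2 ^ K)
        + Vale.Agent.P091.PET.PP (2 ^ ρ) (kp K ρ κ) ((τ : ℝ) + 2 ^ K)) := by
    rw [hT3, sum_insert, sum_insert, sum_singleton]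
    · push_cast; rfl
    · rw [mem_singleton]; omega
    · rw [mem_insert, mem_singleton]; omega
  rw [← e1]
  unfold PPer
  rw [← hF]
  have a1 : ∑ σ ∈ F, Vale.Agent.P091.PET.PP (2 ^ ρ) (kp K ρ κ) σ
      = ∑ σ ∈ F ∪ T3, Vale.Agent.P091.PET.PP (2 ^ ρ) (kp K ρ κ) σ := by
    refine sum_subset subset_union_left fun σ hσ hσF => ?_
    have hσ3 : σ ∈ T3 := by
      rcases mem_union.1 hσ with h | h
      · exact absurd h hσF
      · exact h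
    have hcast : ((σ : ℤ) : X K) = t := by
      rw [hT3, mem_insert, mem_insert, mem_singleton] at hσ3
      rcases hσ3 with h | h | h
      · rw [h, hτ]
      · rw [h]; push_cast; rw [hnz, sub_zero]; exact_mod_cast hτ
      · rw [h]; push_cast; rw [hnz, add_zero]; exact_mod_cast hτ
    refine PP_zero_of hB ?_
    by_contra hc
    push Not at hc
    apply hσF
    rw [hF, mem_filter, mem_Ioo]
    exact ⟨abs_lt.1 hc, hcast⟩
  have a2 : ∑ σ ∈ T3, Vale.Agent.P091.PET.PP (2 ^ ρ) (kp K ρ κ) σ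
      = ∑ σ ∈ F ∪ T3, Vale.Agent.P091.PET.PP (2 ^ ρ) (kp K ρ κ) σ := by
    refine sum_subset subset_union_right fun σ hσ hσT => ?_
    have hσF : σ ∈ F := by
      rcases mem_union.1 hσ with h | h
      · exact h
      · exact absurd h hσT
    rw [hF, mem_filter] at hσF
    have hmod : ((σ : ℤ) : ZMod (2 ^ K)) = ((τ : ℤ) : ZMod (2 ^ K)) := by
      rw [hτ]; exact hσF.2
    rw [ZMod.intCast_eq_intCast_iff] at hmod
    obtain ⟨j, hj⟩ := (Int.modEq_iff_dvd.1 hmod)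
    push_cast at hj
    refine PP_zero_big ?_
    have hτ2 : |2 * τ| ≤ 2 ^ K := by
      have h3 : |(τ : ℝ)| * 2 ≤ 2 ^ K := by
        rw [abs_div, abs_of_pos (by positivity : (0:ℝ) < 2 ^ K), div_le_iff₀ (by positivity)] at h2
        linarith
      have h4 : ((|2 * τ| : ℤ) : ℝ) ≤ ((2 ^ K : ℤ) : ℝ) := by
        push_cast
        rw [abs_mul, abs_two]
        linarith
      exact_mod_cast h4
    have hj0 : j ≠ 0 := by
      rintro rfl
      apply hσT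
      rw [hT3, mem_insert]
      left; linarith
    have hj1 : j ≠ 1 := by
      rintro rfl
      apply hσT
      rw [hT3, mem_insert, mem_insert]
      right; left; linarith
    have hj2 : j ≠ -1 := by
      rintro rfl
      apply hσT
      rw [hT3, mem_insert, mem_insert, mem_singleton]
      right; right; linarith
    rw [abs_le] at hτ2
    rw [le_abs]
    rcases lt_or_ge j 0 with h | h
    · left
      have : j ≤ -2 := by omega
      nlinarith [hτ2.1]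
    · right
      have : 2 ≤ j := by omega
      nlinarith [hτ2.2]
  rw [a1, a2]

/-! ## the pointwise bound -/

/-- bound of the kernel difference at distance `u` -/
noncomputable def Bd (K ρ κ : ℕ) (A N u : ℝ) : ℝ :=
  1202 + (3 * A + 256) * 2 ^ κ * (1 + 2 ^ κ * u)⁻¹ ^ 2
      + if 4 * 2 ^ ρ ≤ 2 ^ K * u then 300 / (2 ^ ρ * u) else 2 * |N| + 50 * 2 ^ K / 2 ^ ρ

lemma Bd_nonneg {ρ κ : ℕ} {A N u : ℝ} (hA : 0 ≤ A) (hu : 0 ≤ u) : 0 ≤ Bd K ρ κ A N u := by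
  unfold Bd
  split_ifs <;> positivity

lemma point {ρ κ : ℕ} {A : ℝ} (hA : 0 ≤ A) (N : ℤ) {B : ℤ}
    (hB : 4 * 2 ^ ρ * 2 ^ kp K ρ κ ≤ B) {φ : X K → ℂ}
    (h1 : ∀ t, ‖φ t - 1‖ ≤ A * (2 ^ κ * nrm t))
    (h2 : ∀ t, ‖φ t‖ ≤ A * (1 + 2 ^ κ * nrm t)⁻¹ ^ 2) (t : X K) :
    |(if t = 0 then 0 else 2 * (ch N t * φ t / (1 - ch 1 t)).re)
      - 2 ^ K / (2 * Real.pi) * ((ch N t).im * PPer K ρ κ B t)| ≤ Bd K ρ κ A N (nrm t) := by
  have hpi := Real.pi_pos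
  obtain ⟨τ, hτ, hn, hh⟩ := rep t
  by_cases ht : t = 0
  · rw [if_pos ht]
    have e : (ch N t).im = 0 := by
      rw [ht, show (0 : X K) = ((0 : ℤ) : X K) by simp, ch_im]
      simp
    rw [e]
    simp only [zero_mul, mul_zero, sub_zero, abs_zero]
    exact Bd_nonneg hA (H69.nrm_nonneg _)
  rw [if_neg ht]
  set r : ℝ := (τ : ℝ) / 2 ^ K with hr
  have hr0 : r ≠ 0 := by
    intro h
    rw [h, abs_zero] at hn
    exact ht (nrm_eq_zero.1 hn)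
  have hτr : (2 : ℝ) ^ K * r = τ := by rw [hr]; field_simp
  have e1 : ch 1 t = Complex.exp (Complex.I * ((2 * (Real.pi * r) : ℝ) : ℂ)) := by
    rw [← hτ, ch_int]
    congr 4
    rw [← hr]; push_cast; ring
  have hsin : Real.sin (Real.pi * r) ≠ 0 := by
    have hx : |Real.pi * r| ≤ Real.pi / 2 := by
      rw [abs_mul, abs_of_pos hpi]; nlinarith
    have h3 := Real.mul_abs_le_abs_sin hx
    intro h
    rw [h, abs_zero] at h3
    have : 0 < 2 / Real.pi * |Real.pi * r| := by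
      have : 0 < |Real.pi * r| := abs_pos.2 (mul_ne_zero hpi.ne' hr0)
      positivity
    linarith
  have hSe : (ch N t).im = Real.sin (2 * Real.pi * N * r) := by
    rw [← hτ, ch_im, hr]; congr 1; ring
  rw [e1, two_re _ hsin, PPer_eq hB hτ hh, ← hτr]
  unfold Bd
  rw [hn]
  refine kern hA K ρ κ hr0 hh ?_ ?_ ?_ ?_
  · rw [hSe]; exact Real.abs_sin_le_one _
  · rw [hSe]
    refine (Real.abs_sin_le_abs).trans (le_of_eq ?_)
    rw [abs_mul, abs_mul, abs_of_pos Real.two_pi_pos]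
  · have e2 : (ch N t * φ t).im - (ch N t).im = (ch N t * (φ t - 1)).im := by
      rw [mul_sub, mul_one, Complex.sub_im]
    rw [e2]
    refine (Complex.abs_im_le_norm _).trans ?_
    rw [norm_mul, norm_ch, one_mul, ← hn]
    exact h1 t
  · rw [norm_mul, norm_ch, one_mul, ← hn]
    exact h2 t

/-! ## the sums against the maximal function -/

lemma sum_decay {κ : ℕ} (hκ : κ ≤ K) (p : X K → ℝ) (x : X K) :
    ave (fun y => |p y| * (2 ^ κ * (1 + 2 ^ κ * nrm (x - y))⁻¹ ^ 2)) ≤ 8 * MX p x := by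
  have h := hl3 (n := 2) le_rfl hκ p (c := x) (x := x) (B := 0) le_rfl (by simp)
  have e : ave (fun y => |p y| * (2 ^ κ * (1 + 2 ^ κ * nrm (x - y))⁻¹ ^ 2))
      = 2 ^ κ * ave (fun y => |p y| * (1 + 2 ^ κ * nrm (y - x))⁻¹ ^ 2) := by
    unfold ave
    rw [← mul_div_assoc, mul_sum]
    congr 1
    refine sum_congr rfl fun y _ => ?_
    beta_reduce
    rw [H69.nrm_sub_comm x y]
    ring
  rw [e]
  refine h.trans (le_of_eq ?_)
  ring

lemma ave_ball_le {j : ℕ} (hj : j ≤ K) (p : X K → ℝ) (x : X K) :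
    ave (fun y => if nrm (x - y) ≤ ((2:ℝ) ^ j)⁻¹ then |p y| else 0) ≤ ((2:ℝ) ^ j)⁻¹ * MX p x := by
  have h := av_le_MX hj p x
  unfold av at h
  have h2 : (0:ℝ) < 2 ^ j := by positivity
  rw [inv_mul_eq_div, le_div_iff₀ h2]
  linarith

lemma inv_nrm_le {t : X K} (ht : t ≠ 0) :
    (nrm t)⁻¹ ≤ ∑ j ∈ range (K + 1), if nrm t ≤ ((2:ℝ) ^ j)⁻¹ then (2:ℝ) ^ (j + 1) else 0 := by
  classical
  have hpos : 0 < nrm t := lt_of_le_of_ne (H69.nrm_nonneg t) fun h => ht (nrm_eq_zero.1 h.symm)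
  have hlow : ((2:ℝ) ^ K)⁻¹ ≤ nrm t := by
    obtain ⟨τ, hτ, hn, -⟩ := rep t
    have hτ0 : τ ≠ 0 := by
      rintro rfl
      rw [Int.cast_zero, zero_div, abs_zero] at hn
      linarith
    rw [hn, abs_div, abs_of_pos (by positivity : (0:ℝ) < 2 ^ K), inv_eq_one_div]
    refine div_le_div_of_nonneg_right ?_ (by positivity)
    have : (1:ℤ) ≤ |τ| := Int.one_le_abs hτ0
    exact_mod_cast this
  set j := Nat.findGreatest (fun j => nrm t ≤ ((2:ℝ) ^ j)⁻¹) K with hj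
  have hj1 : nrm t ≤ ((2:ℝ) ^ j)⁻¹ := by
    have h0 : nrm t ≤ ((2:ℝ) ^ 0)⁻¹ := by
      have := H69.nrm_le_half t
      norm_num
      linarith
    exact Nat.findGreatest_spec (P := fun j => nrm t ≤ ((2:ℝ) ^ j)⁻¹) (Nat.zero_le K) h0
  have hjK : j ≤ K := Nat.findGreatest_le K
  have hj2 : (nrm t)⁻¹ ≤ 2 ^ (j + 1) := by
    rcases eq_or_lt_of_le hjK with h | h
    · rw [h]
      calc (nrm t)⁻¹ ≤ (((2:ℝ) ^ K)⁻¹)⁻¹ := inv_anti₀ (by positivity) hlow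
        _ = 2 ^ K := inv_inv _
        _ ≤ 2 ^ (K + 1) := pow_le_pow_right₀ (by norm_num) (by omega)
    · have h3 : ¬ nrm t ≤ ((2:ℝ) ^ (j + 1))⁻¹ :=
        Nat.findGreatest_is_greatest (P := fun j => nrm t ≤ ((2:ℝ) ^ j)⁻¹) (Nat.lt_succ_self j) h
      push Not at h3
      calc (nrm t)⁻¹ ≤ (((2:ℝ) ^ (j + 1))⁻¹)⁻¹ := inv_anti₀ (by positivity) h3.le
        _ = 2 ^ (j + 1) := inv_inv _
  refine hj2.trans ?_
  have h4 : (2:ℝ) ^ (j + 1) = if nrm t ≤ ((2:ℝ) ^ j)⁻¹ then (2:ℝ) ^ (j + 1) else 0 := by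
    rw [if_pos hj1]
  rw [h4]
  refine single_le_sum (f := fun j => if nrm t ≤ ((2:ℝ) ^ j)⁻¹ then (2:ℝ) ^ (j + 1) else 0)
    (fun i _ => ?_) (mem_range.2 (by omega))
  split_ifs <;> positivity

lemma sum_log (p : X K → ℝ) (x : X K) :
    ave (fun y => if x - y = 0 then 0 else |p y| * (nrm (x - y))⁻¹) ≤ 2 * (K + 1) * MX p x := by
  have h1 : ave (fun y => if x - y = 0 then 0 else |p y| * (nrm (x - y))⁻¹)
      ≤ ave (fun y => ∑ j ∈ range (K + 1), 2 ^ (j + 1) *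
        (if nrm (x - y) ≤ ((2:ℝ) ^ j)⁻¹ then |p y| else 0)) := by
    refine ave_mono fun y => ?_
    split_ifs with h
    · refine sum_nonneg fun j _ => mul_nonneg (by positivity) ?_
      split_ifs
      · exact abs_nonneg _
      · exact le_rfl
    · refine (mul_le_mul_of_nonneg_left (inv_nrm_le h) (abs_nonneg _)).trans (le_of_eq ?_)
      rw [mul_sum]
      refine sum_congr rfl fun j _ => ?_
      split_ifs
      · ring
      · simp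
  have h2 : ave (fun y => ∑ j ∈ range (K + 1), 2 ^ (j + 1) *
        (if nrm (x - y) ≤ ((2:ℝ) ^ j)⁻¹ then |p y| else 0))
      = ∑ j ∈ range (K + 1), 2 ^ (j + 1) *
        ave (fun y => if nrm (x - y) ≤ ((2:ℝ) ^ j)⁻¹ then |p y| else 0) := by
    unfold ave
    rw [sum_comm, sum_div]
    refine sum_congr rfl fun j _ => ?_
    rw [← mul_sum, mul_div_assoc]
  rw [h2] at h1
  refine h1.trans ?_
  have h3 : ∀ j ∈ range (K + 1), (2:ℝ) ^ (j + 1) *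
      ave (fun y => if nrm (x - y) ≤ ((2:ℝ) ^ j)⁻¹ then |p y| else 0) ≤ 2 * MX p x := by
    intro j hj
    rw [mem_range] at hj
    have h4 := ave_ball_le (show j ≤ K by omega) p x
    calc (2:ℝ) ^ (j + 1) * ave (fun y => if nrm (x - y) ≤ ((2:ℝ) ^ j)⁻¹ then |p y| else 0)
        ≤ 2 ^ (j + 1) * (((2:ℝ) ^ j)⁻¹ * MX p x) := mul_le_mul_of_nonneg_left h4 (by positivity)
      _ = 2 * MX p x := by rw [pow_succ]; field_simp
  refine (sum_le_card_nsmul _ _ _ h3).trans (le_of_eq ?_)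
  rw [card_range, nsmul_eq_mul]
  push_cast
  ring

lemma sum_near {ρ : ℕ} (hρ : ρ + 2 ≤ K) (p : X K → ℝ) (x : X K) :
    ave (fun y => if 4 * 2 ^ ρ ≤ 2 ^ K * nrm (x - y) then 0 else |p y|)
      ≤ 4 * 2 ^ ρ / 2 ^ K * MX p x := by
  have e : (4:ℝ) * 2 ^ ρ / 2 ^ K = ((2:ℝ) ^ (K - ρ - 2))⁻¹ := by
    have h1 : K = (K - ρ - 2) + ρ + 2 := by omega
    have h2 : (2:ℝ) ^ K = 2 ^ (K - ρ - 2) * 2 ^ ρ * 4 := by
      conv_lhs => rw [h1]
      rw [pow_add, pow_add]; norm_num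
    rw [h2]; field_simp
  rw [e]
  refine le_trans (ave_mono fun y => ?_) (ave_ball_le (show K - ρ - 2 ≤ K by omega) p x)
  by_cases h1 : 4 * 2 ^ ρ ≤ 2 ^ K * nrm (x - y)
  · rw [if_pos h1]
    split_ifs
    · exact abs_nonneg _
    · exact le_rfl
  · rw [if_neg h1, if_pos]
    push Not at h1
    rw [← e, le_div_iff₀ (by positivity)]
    linarith

/-- the sum of the bounds -/
lemma ave_Bd {ρ κ : ℕ} {A : ℝ} (hA : 0 ≤ A) (N : ℤ) (hK : κ + ρ + 3 ≤ K) (p : X K → ℝ) (x : X K) :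
    ave (fun y => |p y| * Bd K ρ κ A N (nrm (x - y)))
      ≤ ((4100 + 24 * A) * (1 + K / 2 ^ ρ) + 8 * |(N:ℝ)| * 2 ^ ρ / 2 ^ K) * MX p x := by
  have hM := MX_nonneg p x
  have hR0 : (0:ℝ) < 2 ^ ρ := by positivity
  have hR1 : (1:ℝ) ≤ 2 ^ ρ := one_le_pow₀ (by norm_num)
  have hn0 : (0:ℝ) < 2 ^ K := by positivity
  have h0 : ave (fun y => |p y|) ≤ MX p x := by
    have h := ave_ball_le (Nat.zero_le K) p x
    rw [pow_zero, inv_one, one_mul] at h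
    refine le_trans (ave_mono fun y => ?_) h
    rw [if_pos]
    have := H69.nrm_le_half (x - y)
    linarith
  have h1 := sum_decay (show κ ≤ K by omega) p x
  have h2 := sum_log p x
  have h3 := sum_near (show ρ + 2 ≤ K by omega) p x
  have key : ave (fun y => |p y| * Bd K ρ κ A N (nrm (x - y)))
      ≤ 1202 * ave (fun y => |p y|)
        + (3 * A + 256) * ave (fun y => |p y| * (2 ^ κ * (1 + 2 ^ κ * nrm (x - y))⁻¹ ^ 2))
        + (300 / 2 ^ ρ) * ave (fun y => if x - y = 0 then 0 else |p y| * (nrm (x - y))⁻¹)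
        + (2 * |(N:ℝ)| + 50 * 2 ^ K / 2 ^ ρ) *
          ave (fun y => if 4 * 2 ^ ρ ≤ 2 ^ K * nrm (x - y) then 0 else |p y|) := by
    rw [← ave_mul_left, ← ave_mul_left, ← ave_mul_left, ← ave_mul_left, ← ave_add, ← ave_add,
      ← ave_add]
    refine ave_mono fun y => ?_
    unfold Bd
    by_cases hf : 4 * 2 ^ ρ ≤ 2 ^ K * nrm (x - y)
    · have hne : x - y ≠ 0 := by
        intro h
        rw [h, H69.nrm_zero, mul_zero] at hf
        linarith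
      rw [if_pos hf, if_pos hf, if_neg hne]
      have hn : nrm (x - y) ≠ 0 := fun h => hne (nrm_eq_zero.1 h)
      apply le_of_eq
      field_simp
      ring
    · rw [if_neg hf, if_neg hf]
      have h4 : 0 ≤ 300 / 2 ^ ρ * (if x - y = 0 then 0 else |p y| * (nrm (x - y))⁻¹) := by
        refine mul_nonneg (by positivity) ?_
        split_ifs
        · exact le_rfl
        · exact mul_nonneg (abs_nonneg _) (inv_nonneg.2 (H69.nrm_nonneg _))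
      have h5 : |p y| * (1202 + (3 * A + 256) * 2 ^ κ * (1 + 2 ^ κ * nrm (x - y))⁻¹ ^ 2
          + (2 * |(N:ℝ)| + 50 * 2 ^ K / 2 ^ ρ))
          = 1202 * |p y| + (3 * A + 256) * (|p y| * (2 ^ κ * (1 + 2 ^ κ * nrm (x - y))⁻¹ ^ 2))
            + (2 * |(N:ℝ)| + 50 * 2 ^ K / 2 ^ ρ) * |p y| := by ring
      rw [h5]
      linarith
  refine key.trans ?_
  have g1 : 1202 * ave (fun y => |p y|) ≤ 1202 * MX p x := by linarith
  have g2 : (3 * A + 256) * ave (fun y => |p y| * (2 ^ κ * (1 + 2 ^ κ * nrm (x - y))⁻¹ ^ 2))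
      ≤ (3 * A + 256) * (8 * MX p x) := mul_le_mul_of_nonneg_left h1 (by positivity)
  have g3 : (300 / 2 ^ ρ) * ave (fun y => if x - y = 0 then 0 else |p y| * (nrm (x - y))⁻¹)
      ≤ (600 + 600 * (K / 2 ^ ρ)) * MX p x := by
    calc (300 / 2 ^ ρ) * ave (fun y => if x - y = 0 then 0 else |p y| * (nrm (x - y))⁻¹)
        ≤ (300 / 2 ^ ρ) * (2 * (K + 1) * MX p x) := mul_le_mul_of_nonneg_left h2 (by positivity)
      _ = (600 / 2 ^ ρ + 600 * (K / 2 ^ ρ)) * MX p x := by ring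
      _ ≤ (600 + 600 * (K / 2 ^ ρ)) * MX p x := by
          refine mul_le_mul_of_nonneg_right ?_ hM
          have : (600:ℝ) / 2 ^ ρ ≤ 600 := div_le_self (by norm_num) hR1
          linarith
  have g4 : (2 * |(N:ℝ)| + 50 * 2 ^ K / 2 ^ ρ) *
        ave (fun y => if 4 * 2 ^ ρ ≤ 2 ^ K * nrm (x - y) then 0 else |p y|)
      ≤ (8 * |(N:ℝ)| * 2 ^ ρ / 2 ^ K + 200) * MX p x := by
    calc (2 * |(N:ℝ)| + 50 * 2 ^ K / 2 ^ ρ) *
        ave (fun y => if 4 * 2 ^ ρ ≤ 2 ^ K * nrm (x - y) then 0 else |p y|)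
        ≤ (2 * |(N:ℝ)| + 50 * 2 ^ K / 2 ^ ρ) * (4 * 2 ^ ρ / 2 ^ K * MX p x) :=
          mul_le_mul_of_nonneg_left h3 (by positivity)
      _ = (8 * |(N:ℝ)| * 2 ^ ρ / 2 ^ K + 200) * MX p x := by field_simp; ring
  have g5 : 0 ≤ (K:ℝ) / 2 ^ ρ * MX p x := by positivity
  have g6 : 0 ≤ A * ((K:ℝ) / 2 ^ ρ * MX p x) := by positivity
  have e : ((4100 + 24 * A) * (1 + K / 2 ^ ρ) + 8 * |(N:ℝ)| * 2 ^ ρ / 2 ^ K) * MX p x
      = 4100 * MX p x + 24 * A * MX p x + 4100 * ((K:ℝ) / 2 ^ ρ * MX p x)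
        + 24 * (A * ((K:ℝ) / 2 ^ ρ * MX p x)) + 8 * |(N:ℝ)| * 2 ^ ρ / 2 ^ K * MX p x := by ring
  rw [e]
  have e2 : (3 * A + 256) * (8 * MX p x) = 24 * A * MX p x + 2048 * MX p x := by ring
  have e3 : (600 + 600 * ((K:ℝ) / 2 ^ ρ)) * MX p x
      = 600 * MX p x + 600 * ((K:ℝ) / 2 ^ ρ * MX p x) := by ring
  have e4 : (8 * |(N:ℝ)| * 2 ^ ρ / 2 ^ K + 200) * MX p x
      = 8 * |(N:ℝ)| * 2 ^ ρ / 2 ^ K * MX p x + 200 * MX p x := by ring
  rw [e2] at g2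
  rw [e3] at g3
  rw [e4] at g4
  linarith

/-- the sum over the integers as a sum over the grid -/
lemma sum_int {ρ κ : ℕ} (B : ℤ) (N : ℤ) (p : X K → ℝ) (x : X K) :
    ∑ τ ∈ Ioo (-B) B, p (x - ((τ : ℤ) : X K)) * Real.sin (2 * Real.pi * N * τ / 2 ^ K)
        * Vale.Agent.P091.PET.PP (2 ^ ρ) (kp K ρ κ) τ
      = ∑ y : X K, p y * ((ch N (x - y)).im * PPer K ρ κ B (x - y)) := by
  have e1 : ∑ y : X K, p y * ((ch N (x - y)).im * PPer K ρ κ B (x - y))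
      = ∑ t : X K, p (x - t) * ((ch N t).im * PPer K ρ κ B t) := by
    rw [← Equiv.sum_comp (Equiv.subLeft x)]
    refine sum_congr rfl fun t _ => ?_
    simp
  rw [e1, ← sum_fiberwise (Ioo (-B) B) (fun τ : ℤ => ((τ : ℤ) : X K))]
  refine sum_congr rfl fun t _ => ?_
  unfold PPer
  rw [mul_sum, mul_sum]
  refine sum_congr rfl fun τ hτ => ?_
  rw [mem_filter] at hτ
  rw [← hτ.2, ch_im]
  ring

/-- **SWITCH, the Petermichl side.** -/
theorem switch_pet {ρ κ : ℕ} {A : ℝ} (hA : 0 ≤ A) (N : ℤ) (hK : κ + ρ + 3 ≤ K) {B : ℤ}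
    (hB : 4 * 2 ^ ρ * 2 ^ kp K ρ κ ≤ B) {φ : X K → ℂ}
    (h1 : ∀ t, ‖φ t - 1‖ ≤ A * (2 ^ κ * nrm t))
    (h2 : ∀ t, ‖φ t‖ ≤ A * (1 + 2 ^ κ * nrm t)⁻¹ ^ 2) (p : X K → ℝ) (x : X K) :
    |ave (fun y => p y * (if x - y = 0 then 0 else
        2 * (ch N (x - y) * φ (x - y) / (1 - ch 1 (x - y))).re))
      - 1 / (2 * Real.pi) * ∑ τ ∈ Ioo (-B) B, p (x - ((τ : ℤ) : X K))
          * Real.sin (2 * Real.pi * N * τ / 2 ^ K)
          * Vale.Agent.P091.PET.PP (2 ^ ρ) (kp K ρ κ) τ|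
      ≤ ((4100 + 24 * A) * (1 + K / 2 ^ ρ) + 8 * |(N:ℝ)| * 2 ^ ρ / 2 ^ K) * MX p x := by
  refine le_trans ?_ (ave_Bd hA N hK p x)
  rw [sum_int]
  have e : ave (fun y => p y * (if x - y = 0 then 0 else
        2 * (ch N (x - y) * φ (x - y) / (1 - ch 1 (x - y))).re))
      - 1 / (2 * Real.pi) * ∑ y : X K, p y * ((ch N (x - y)).im * PPer K ρ κ B (x - y))
      = ave (fun y => p y * ((if x - y = 0 then 0 else
        2 * (ch N (x - y) * φ (x - y) / (1 - ch 1 (x - y))).re)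
        - 2 ^ K / (2 * Real.pi) * ((ch N (x - y)).im * PPer K ρ κ B (x - y)))) := by
    unfold ave
    have hn0 : (2:ℝ) ^ K ≠ 0 := by positivity
    have hpi := Real.pi_ne_zero
    simp_rw [mul_sub]
    rw [sum_sub_distrib, sub_div]
    congr 1
    rw [mul_sum, sum_div]
    refine sum_congr rfl fun y _ => ?_
    field_simp
  rw [e]
  unfold ave
  rw [abs_div, abs_of_pos (by positivity : (0:ℝ) < 2 ^ K)]
  refine div_le_div_of_nonneg_right ?_ (by positivity)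
  refine (abs_sum_le_sum_abs _ _).trans (sum_le_sum fun y _ => ?_)
  rw [abs_mul]
  exact mul_le_mul_of_nonneg_left (point hA N hB h1 h2 (x - y)) (abs_nonneg _)

/-- the row S4 of TOP/Props -/
theorem p_S4 : P_S4 := by
  refine ⟨1 / (2 * Real.pi), fun A => ⟨4100 + 24 * max A 0, ?_⟩⟩
  intro K κ ρ N p Bp φ x hK hρ hp0 hpB hN h1 h2
  set A' := max A 0 with hA'
  have hA0 : 0 ≤ A' := le_max_right _ _
  have hAA : A ≤ A' := le_max_left _ _
  have h1' : ∀ t, ‖φ t - 1‖ ≤ A' * (2 ^ κ * nrm t) := fun t =>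
    (h1 t).trans (mul_le_mul_of_nonneg_right hAA
      (mul_nonneg (by positivity) (H69.nrm_nonneg _)))
  have h2' : ∀ t, ‖φ t‖ ≤ A' * (1 + 2 ^ κ * nrm t)⁻¹ ^ 2 := fun t =>
    (h2 t).trans (mul_le_mul_of_nonneg_right hAA (by positivity))
  have hB : 4 * 2 ^ ρ * 2 ^ kp K ρ κ ≤ (2 : ℤ) ^ K := by
    unfold kp
    have h3 : (4 : ℤ) * 2 ^ ρ * 2 ^ (K - ρ - κ - 3) = 2 ^ (2 + ρ + (K - ρ - κ - 3)) := by
      rw [pow_add, pow_add]; norm_num
    rw [h3]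
    exact pow_le_pow_right₀ (by norm_num) (by omega)
  have h := switch_pet hA0 ((N : ℤ) + 1) hK hB h1' h2' p x
  have hBp : 0 ≤ Bp := (hp0 x).trans (hpB x)
  have hM : MX p x ≤ 16 * Bp := MX_const_le (fun y => by
    rw [abs_of_nonneg (hp0 y)]; exact hpB y) x
  have hc : (((N : ℤ) + 1 : ℤ) : ℝ) = (N : ℝ) + 1 := by push_cast; ring
  have hN0 : (0:ℝ) ≤ (N : ℝ) + 1 := by positivity
  rw [hc] at h
  unfold kp at h
  refine h.trans ?_
  rw [abs_of_nonneg hN0, add_mul]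
  refine add_le_add le_rfl ?_
  have h5 : 8 * ((N:ℝ) + 1) * 2 ^ ρ / 2 ^ K * MX p x ≤ 8 * ((N:ℝ) + 1) * 2 ^ ρ / 2 ^ K * (16 * Bp) :=
    mul_le_mul_of_nonneg_left hM (by positivity)
  refine h5.trans ?_
  have h6 : 8 * ((N:ℝ) + 1) * 2 ^ ρ / 2 ^ K * (16 * Bp)
      = 128 * (((N:ℝ) + 1) * 2 ^ ρ * Bp / 2 ^ K) := by ring
  have h7 : (4100 + 24 * A') * ((N:ℝ) + 1) * 2 ^ ρ * Bp / 2 ^ K
      = (4100 + 24 * A') * (((N:ℝ) + 1) * 2 ^ ρ * Bp / 2 ^ K) := by ring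
  rw [h6, h7]
  refine mul_le_mul_of_nonneg_right (by linarith) (by positivity)

end Vale.Agent.P091.TOP.H827
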