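import Vale.Agent.P091.PET.H514.Kap

/-!
# P091 / TOP / H827 / Kern: the kernel inequality behind the SWITCH (one real variable)
-/

namespace Vale.Agent.P091.TOP.H827

open Finset Vale.Agent.P091.PET

/-! ## the cotangent -/

lemma cot_pos {x : ℝ} (h0 : 0 < x) (h1 : x ≤ Real.pi / 2) :
    0 ≤ Real.cos x / Real.sin x ∧ Real.cos x / Real.sin x ≤ 1 / x ∧
      1 / x - Real.cos x / Real.sin x ≤ 2 := by
  have hpi := Real.pi_pos
  have hs : 0 < Real.sin x := Real.sin_pos_of_pos_of_lt_pi h0 (by linarith)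
  have hc : 0 ≤ Real.cos x := Real.cos_nonneg_of_neg_pi_div_two_le_of_le (by linarith) h1
  have hxc : x * Real.cos x ≤ Real.sin x := by
    rcases eq_or_lt_of_le h1 with h | h
    · rw [h, Real.cos_pi_div_two, mul_zero, Real.sin_pi_div_two]; norm_num
    · have h2 := Real.lt_tan h0 h
      have hc' : 0 < Real.cos x := Real.cos_pos_of_mem_Ioo ⟨by linarith, h⟩
      rw [Real.tan_eq_sin_div_cos, lt_div_iff₀ hc'] at h2
      exact h2.le
  refine ⟨div_nonneg hc hs.le, ?_, ?_⟩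
  · rw [div_le_div_iff₀ hs h0]; linarith
  · have h2 : Real.sin x ≤ x := Real.sin_le h0.le
    have h3 : 1 - x ^ 2 / 2 ≤ Real.cos x := Real.one_sub_sq_div_two_le_cos
    have h4 : 2 / Real.pi * x ≤ Real.sin x := Real.mul_le_sin h0.le h1
    have h5 : 1 / x - Real.cos x / Real.sin x = (Real.sin x - x * Real.cos x) / (x * Real.sin x) := by
      field_simp
    rw [h5, div_le_iff₀ (by positivity)]
    have h6 : Real.sin x - x * Real.cos x ≤ x ^ 3 / 2 := by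
      nlinarith [mul_le_mul_of_nonneg_left h3 h0.le]
    have h7 : x * (2 / Real.pi * x) ≤ x * Real.sin x := mul_le_mul_of_nonneg_left h4 h0.le
    have h8 : x ^ 3 / 2 ≤ 2 * (x * (2 / Real.pi * x)) := by
      have h9 : x * (2 / Real.pi * x) = 2 * x ^ 2 / Real.pi := by ring
      rw [h9]
      have h10 : x ^ 3 / 2 * Real.pi ≤ 4 * x ^ 2 := by
        have h11 : x * Real.pi ≤ 8 := by
          have : Real.pi < 3.2 := Real.pi_lt_d2.trans (by norm_num)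
          nlinarith
        nlinarith [sq_nonneg x]
      rw [show 2 * (2 * x ^ 2 / Real.pi) = (4 * x ^ 2) / Real.pi by ring, le_div_iff₀ hpi]
      exact h10
    linarith

/-- the two bounds for the cotangent -/
lemma cot_bounds {x : ℝ} (h0 : x ≠ 0) (h1 : |x| ≤ Real.pi / 2) :
    |Real.cos x / Real.sin x| ≤ 1 / |x| ∧ |Real.cos x / Real.sin x - 1 / x| ≤ 2 := by
  rcases lt_or_gt_of_ne h0 with h | h
  · rw [abs_of_neg h] at h1
    have h2 := cot_pos (x := -x) (by linarith) h1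
    rw [Real.cos_neg, Real.sin_neg, div_neg] at h2
    rw [abs_of_neg h]
    constructor
    · rw [abs_of_nonpos (by linarith [h2.1])]; exact h2.2.1
    · have e : Real.cos x / Real.sin x - 1 / x = 1 / (-x) - -(Real.cos x / Real.sin x) := by
        rw [div_neg]; ring
      rw [e, abs_of_nonneg (by linarith [h2.2.1])]
      exact h2.2.2
  · rw [abs_of_pos h] at h1
    have h2 := cot_pos h h1
    rw [abs_of_pos h]
    constructor
    · rw [abs_of_nonneg h2.1]; exact h2.2.1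
    · rw [abs_sub_comm, abs_of_nonneg (by linarith [h2.2.1])]
      exact h2.2.2

/-- `2 Re (w / (1 - e^{2ix})) = Re w - cot x Im w` -/
lemma two_re (x : ℝ) (hx : Real.sin x ≠ 0) (w : ℂ) :
    2 * (w / (1 - Complex.exp (Complex.I * ((2 * x : ℝ) : ℂ)))).re
      = w.re - Real.cos x / Real.sin x * w.im := by
  set s := Real.sin x with hs
  set c := Real.cos x with hc
  have hsc : s ^ 2 + c ^ 2 = 1 := Real.sin_sq_add_cos_sq x
  have hsC : (s : ℂ) ≠ 0 := by exact_mod_cast hx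
  have e1 : Complex.exp (Complex.I * ((2 * x : ℝ) : ℂ)) = ((c : ℂ) + s * Complex.I) ^ 2 := by
    have : Complex.I * ((2 * x : ℝ) : ℂ) = (2 : ℕ) * ((x : ℂ) * Complex.I) := by
      push_cast; ring
    rw [this, Complex.exp_nat_mul, Complex.exp_mul_I, hs, hc, Complex.ofReal_sin,
      Complex.ofReal_cos]
  have hscC : (s : ℂ) ^ 2 + (c : ℂ) ^ 2 = 1 := by exact_mod_cast hsc
  have e2 : (1 - Complex.exp (Complex.I * ((2 * x : ℝ) : ℂ))) *
      (((1 / 2 : ℝ) : ℂ) + ((c / (2 * s) : ℝ) : ℂ) * Complex.I) = 1 := by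
    rw [e1]
    push_cast
    field_simp
    have hI : Complex.I ^ 2 = -1 := Complex.I_sq
    have h3 : Complex.I ^ 3 = -Complex.I := by rw [pow_succ, hI]; ring
    have : (1 - ((c : ℂ) + s * Complex.I) ^ 2) * (s + c * Complex.I)
        = s * (1 - (c : ℂ) ^ 2 - s ^ 2 * Complex.I ^ 2 - 2 * c ^ 2 * Complex.I ^ 2)
          + c * Complex.I * (1 - c ^ 2 - 2 * s ^ 2 - s ^ 2 * Complex.I ^ 2) := by ring
    rw [this, hI]
    have h4 : (c : ℂ) ^ 2 = 1 - (s : ℂ) ^ 2 := by rw [← hscC]; ring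
    rw [h4]; ring
  have e3 : w / (1 - Complex.exp (Complex.I * ((2 * x : ℝ) : ℂ)))
      = w * (((1 / 2 : ℝ) : ℂ) + ((c / (2 * s) : ℝ) : ℂ) * Complex.I) := by
    rw [div_eq_mul_inv]
    congr 1
    exact (eq_inv_of_mul_eq_one_right e2).symm
  rw [e3]
  simp only [Complex.mul_re, Complex.add_re, Complex.ofReal_re, Complex.I_re, mul_zero,
    Complex.ofReal_im, Complex.I_im, mul_one, sub_self, add_zero, Complex.add_im, Complex.mul_im,
    zero_add]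
  field_simp

/-! ## the kernel `PP` -/

lemma PP_eq_zero {R : ℕ} (hR : 1 ≤ R) (m : ℕ) {t : ℝ} (ht : 4 * (R : ℝ) * 2 ^ m ≤ |t|) :
    PP R m t = 0 := by
  unfold PP
  refine sum_eq_zero fun i hi => sum_eq_zero fun k hk => ?_
  rw [mem_range] at hi hk
  have hR0 : (0 : ℝ) < R := by exact_mod_cast hR
  have hk' : ((R + k : ℕ) : ℝ) ≤ 2 * R := by
    have : R + k ≤ 2 * R := by omega
    exact_mod_cast this
  have hk0 : (0 : ℝ) < ((R + k : ℕ) : ℝ) := by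
    have : 0 < R + k := by omega
    exact_mod_cast this
  have hi' : (2 : ℝ) * 2 ^ i ≤ 2 ^ m := by
    rw [← pow_succ']
    exact pow_le_pow_right₀ (by norm_num) hi
  have h2i : (0 : ℝ) < 2 ^ i := by positivity
  rw [kap_of_four_le_abs]
  · simp
  · rw [abs_div, abs_of_pos (mul_pos hk0 h2i), le_div_iff₀ (mul_pos hk0 h2i)]
    refine le_trans ?_ ht
    calc 4 * (((R + k : ℕ) : ℝ) * 2 ^ i) ≤ 4 * ((2 * R) * 2 ^ i) := by gcongr
      _ = 4 * (R : ℝ) * (2 * 2 ^ i) := by ring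
      _ ≤ 4 * (R : ℝ) * 2 ^ m := by gcongr

lemma abs_PP_le {R : ℕ} (hR : 1 ≤ R) (m : ℕ) {t : ℝ} (ht : t ≠ 0) :
    |PP R m t| ≤ 1800 / |t| := by
  rcases lt_or_gt_of_ne ht with h | h
  · have h1 := PP_le hR m (t := -t) (by linarith)
    rw [PP_neg, abs_neg] at h1
    rwa [abs_of_neg h]
  · rw [abs_of_pos h]; exact PP_le hR m h

lemma abs_PP_near {R : ℕ} (hR : 1 ≤ R) (m : ℕ) {t : ℝ} (ht0 : t ≠ 0) (ht : |t| ≤ 4 * (R : ℝ)) :
    |PP R m t| ≤ 300 / R := by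
  rcases lt_or_gt_of_ne ht0 with h | h
  · rw [abs_of_neg h] at ht
    have h1 := PP_near hR m (t := -t) (by linarith) ht
    rwa [PP_neg, abs_neg] at h1
  · rw [abs_of_pos h] at ht
    exact PP_near hR m h ht

lemma abs_PP_far {R : ℕ} (hR : 1 ≤ R) (m : ℕ) {t : ℝ} (ht : 4 * (R : ℝ) ≤ |t|) :
    |PP R m t + 2 / t| ≤ 1600 / (R * |t|) + 6 * |t| / (R * 2 ^ m) ^ 2 := by
  rcases abs_cases t with h | h
  · rw [h.1] at ht ⊢
    exact PP_far hR m ht
  · rw [h.1] at ht ⊢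
    have h1 := PP_far hR m (t := -t) ht
    rw [PP_neg] at h1
    have e : -PP R m t + 2 / -t = -(PP R m t + 2 / t) := by rw [div_neg]; ring
    rwa [e, abs_neg] at h1

/-- the index of the truncated Petermichl sum -/
def kp (K ρ κ : ℕ) : ℕ := K - ρ - κ - 3

lemma kp_cases (K ρ κ : ℕ) :
    ((8 : ℝ) * 2 ^ ρ * 2 ^ kp K ρ κ * 2 ^ κ = 2 ^ K) ∨
      (kp K ρ κ = 0 ∧ (2 : ℝ) ^ K ≤ 8 * 2 ^ ρ * 2 ^ κ) := by
  unfold kp
  rcases le_or_gt (ρ + κ + 3) K with h | h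
  · left
    have : K = 3 + ρ + (K - ρ - κ - 3) + κ := by omega
    conv_rhs => rw [this]
    rw [pow_add, pow_add, pow_add]
    norm_num
  · right
    refine ⟨by omega, ?_⟩
    calc (2 : ℝ) ^ K ≤ 2 ^ (3 + ρ + κ) := pow_le_pow_right₀ (by norm_num) (by omega)
      _ = 8 * 2 ^ ρ * 2 ^ κ := by rw [pow_add, pow_add]; norm_num

/-! ### the pieces, with plain real variables -/

lemma ext_aux {ρ m : ℕ} {n r S : ℝ} (hn0 : 0 < n) (hr : |r| ≤ 1 / 2) (hS : |S| ≤ 1) :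
    |n / (2 * Real.pi) * (S * (PP (2 ^ ρ) m (n * r - n) + PP (2 ^ ρ) m (n * r + n)))| ≤ 1200 := by
  have hpi := Real.pi_pos
  have hpi3 : 3 < Real.pi := Real.pi_gt_three
  have hR1 : 1 ≤ 2 ^ ρ := Nat.one_le_two_pow
  have hr2 := abs_le.1 hr
  set Pm := PP (2 ^ ρ) m (n * r - n) with hPm
  set Pp := PP (2 ^ ρ) m (n * r + n) with hPp
  have a1 : n / 2 ≤ |n * r - n| := by
    rw [abs_sub_comm]; refine le_trans ?_ (le_abs_self _); nlinarith
  have a2 : n / 2 ≤ |n * r + n| := by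
    refine le_trans ?_ (le_abs_self _); nlinarith
  have b1 : |Pm| ≤ 3600 / n := by
    have h0 : n * r - n ≠ 0 := by
      intro h; rw [h, abs_zero] at a1; linarith
    refine (abs_PP_le hR1 m h0).trans ?_
    rw [div_le_div_iff₀ (by linarith) hn0]; linarith
  have b2 : |Pp| ≤ 3600 / n := by
    have h0 : n * r + n ≠ 0 := by
      intro h; rw [h, abs_zero] at a2; linarith
    refine (abs_PP_le hR1 m h0).trans ?_
    rw [div_le_div_iff₀ (by linarith) hn0]; linarith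
  have b3 : |S * (Pm + Pp)| ≤ 7200 / n := by
    rw [abs_mul]
    have c1 : |Pm + Pp| ≤ 7200 / n := by
      refine (abs_add_le _ _).trans ?_
      calc |Pm| + |Pp| ≤ 3600 / n + 3600 / n := add_le_add b1 b2
        _ = 7200 / n := by ring
    calc |S| * |Pm + Pp| ≤ 1 * (7200 / n) :=
          mul_le_mul hS c1 (abs_nonneg _) zero_le_one
      _ = 7200 / n := one_mul _
  rw [abs_mul, abs_of_pos (by positivity : (0:ℝ) < n / (2 * Real.pi))]
  calc n / (2 * Real.pi) * |S * (Pm + Pp)| ≤ n / (2 * Real.pi) * (7200 / n) :=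
        mul_le_mul_of_nonneg_left b3 (by positivity)
    _ = 3600 / Real.pi := by field_simp; ring
    _ ≤ 1200 := by rw [div_le_iff₀ hpi]; linarith

lemma far_aux {n R k2 r M P0 : ℝ} (hn0 : 0 < n) (hR0 : 0 < R) (hr0 : r ≠ 0)
    (hM0 : 0 < M) (f1 : |P0 + 2 / (n * r)| ≤ 1600 / (R * (n * |r|)) + 6 * (n * |r|) / M ^ 2)
    (hstar : n * (n * |r|) ≤ 64 * M ^ 2 * k2) :
    |1 / (Real.pi * r) + n / (2 * Real.pi) * P0| ≤ 300 / (R * |r|) + 64 * k2 := by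
  have hpi := Real.pi_pos
  have hpi3 : 3 < Real.pi := Real.pi_gt_three
  have hra : 0 < |r| := abs_pos.2 hr0
  have e1 : 1 / (Real.pi * r) + n / (2 * Real.pi) * P0
      = n / (2 * Real.pi) * (P0 + 2 / (n * r)) := by
    field_simp; ring
  rw [e1, abs_mul, abs_of_pos (by positivity : (0:ℝ) < n / (2 * Real.pi))]
  have g1 : 800 / Real.pi ≤ 300 := by rw [div_le_iff₀ hpi]; linarith
  have g2 : 3 / Real.pi ≤ 1 := by rw [div_le_one hpi]; exact hpi3.le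
  have g3 : (n * (n * |r|)) / M ^ 2 ≤ 64 * k2 := by
    rw [div_le_iff₀ (by positivity)]
    linarith
  calc n / (2 * Real.pi) * |P0 + 2 / (n * r)|
      ≤ n / (2 * Real.pi) * (1600 / (R * (n * |r|)) + 6 * (n * |r|) / M ^ 2) :=
        mul_le_mul_of_nonneg_left f1 (by positivity)
    _ = (800 / Real.pi) / (R * |r|)
        + (3 / Real.pi) * ((n * (n * |r|)) / M ^ 2) := by
        field_simp; ring
    _ ≤ 300 / (R * |r|) + 1 * (64 * k2) := by
        refine add_le_add ?_ ?_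
        · exact div_le_div_of_nonneg_right g1 (by positivity)
        · exact mul_le_mul g2 g3 (by positivity) zero_le_one
    _ = 300 / (R * |r|) + 64 * k2 := by rw [one_mul]

lemma star_aux (K ρ κ : ℕ) {r : ℝ} (hr : 0 ≤ |r|) (hs : 2 ^ κ * |r| ≤ 1) :
    (2 : ℝ) ^ K * (2 ^ K * |r|) ≤ 64 * (2 ^ ρ * 2 ^ kp K ρ κ) ^ 2 * 2 ^ κ := by
  have hn0 : (0:ℝ) < 2 ^ K := by positivity
  have hR0 : (0:ℝ) < 2 ^ ρ := by positivity
  have hk0 : (0:ℝ) < 2 ^ κ := by positivity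
  have hm0 : (0:ℝ) < 2 ^ kp K ρ κ := by positivity
  rcases kp_cases K ρ κ with h | ⟨h0, h⟩
  · set n : ℝ := 2 ^ K
    set M : ℝ := 2 ^ ρ * 2 ^ kp K ρ κ with hM
    have hM0 : 0 < M := by positivity
    have hRm : 8 * M * 2 ^ κ = n := by rw [← h, hM]; ring
    have e1 : 64 * M ^ 2 * 2 ^ κ = n * (8 * M) := by
      rw [← hRm]; ring
    rw [e1]
    refine mul_le_mul_of_nonneg_left ?_ hn0.le
    calc n * |r| = 8 * M * (2 ^ κ * |r|) := by rw [← hRm]; ring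
      _ ≤ 8 * M * 1 := mul_le_mul_of_nonneg_left hs (by positivity)
      _ = 8 * M := mul_one _
  · rw [h0, pow_zero, mul_one]
    have g1 : 2 ^ K * |r| ≤ 8 * 2 ^ ρ := by
      calc 2 ^ K * |r| ≤ 8 * 2 ^ ρ * 2 ^ κ * |r| := mul_le_mul_of_nonneg_right h hr
        _ = 8 * 2 ^ ρ * (2 ^ κ * |r|) := by ring
        _ ≤ 8 * 2 ^ ρ * 1 := mul_le_mul_of_nonneg_left hs (by positivity)
        _ = 8 * 2 ^ ρ := mul_one _
    calc (2:ℝ) ^ K * (2 ^ K * |r|) ≤ (8 * 2 ^ ρ * 2 ^ κ) * (8 * 2 ^ ρ) :=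
          mul_le_mul h g1 (by positivity) (by positivity)
      _ = 64 * (2 ^ ρ) ^ 2 * 2 ^ κ := by ring

/-- middle and near range: `S (cot + n/(2π) P)` -/
lemma mid_aux {K ρ κ : ℕ} {r S N : ℝ} (hr0 : r ≠ 0) (hr : |r| ≤ 1 / 2)
    (hS : |S| ≤ 1) (hSN : |S| ≤ 2 * Real.pi * |N| * |r|) (hs1 : 2 ^ κ * |r| ≤ 1) :
    |S * (Real.cos (Real.pi * r) / Real.sin (Real.pi * r)
      + 2 ^ K / (2 * Real.pi) * PP (2 ^ ρ) (kp K ρ κ) (2 ^ K * r))| ≤ 2 + 64 * 2 ^ κ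
      + if 4 * 2 ^ ρ ≤ 2 ^ K * |r| then 300 / (2 ^ ρ * |r|) else 2 * |N| + 50 * 2 ^ K / 2 ^ ρ := by
  have hpi := Real.pi_pos
  have hpi3 : 3 < Real.pi := Real.pi_gt_three
  have hR1 : 1 ≤ 2 ^ ρ := Nat.one_le_two_pow
  have hRc : ((2 ^ ρ : ℕ) : ℝ) = 2 ^ ρ := by push_cast; rfl
  have hn0 : (0:ℝ) < 2 ^ K := by positivity
  have hR0 : (0:ℝ) < 2 ^ ρ := by positivity
  have hk0 : (0:ℝ) < 2 ^ κ := by positivity
  have hra : 0 < |r| := abs_pos.2 hr0
  have hxr : Real.pi * r ≠ 0 := mul_ne_zero hpi.ne' hr0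
  have hxr' : |Real.pi * r| ≤ Real.pi / 2 := by
    rw [abs_mul, abs_of_pos hpi]; nlinarith
  obtain ⟨hc1, hc2⟩ := cot_bounds hxr hxr'
  rw [abs_mul, abs_of_pos hpi] at hc1
  set ct := Real.cos (Real.pi * r) / Real.sin (Real.pi * r) with hct
  set P0 := PP (2 ^ ρ) (kp K ρ κ) (2 ^ K * r) with hP0
  split_ifs with hfar
  · have hfar' : 4 * ((2 ^ ρ : ℕ) : ℝ) ≤ |2 ^ K * r| := by
      rw [hRc, abs_mul, abs_of_pos hn0]; exact hfar
    have f1 := abs_PP_far hR1 (kp K ρ κ) hfar'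
    rw [hRc, abs_mul, abs_of_pos hn0, ← hP0] at f1
    have f2 := far_aux hn0 hR0 hr0 (by positivity) f1 (star_aux K ρ κ hra.le hs1)
    have e2 : S * (ct + 2 ^ K / (2 * Real.pi) * P0) = S * ((ct - 1 / (Real.pi * r))
        + (1 / (Real.pi * r) + 2 ^ K / (2 * Real.pi) * P0)) := by ring
    rw [e2, abs_mul]
    have f3 : |(ct - 1 / (Real.pi * r)) + (1 / (Real.pi * r) + 2 ^ K / (2 * Real.pi) * P0)|
        ≤ 2 + (300 / (2 ^ ρ * |r|) + 64 * 2 ^ κ) := (abs_add_le _ _).trans (add_le_add hc2 f2)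
    calc |S| * _ ≤ 1 * (2 + (300 / (2 ^ ρ * |r|) + 64 * 2 ^ κ)) :=
          mul_le_mul hS f3 (abs_nonneg _) zero_le_one
      _ = _ := by ring
  · push Not at hfar
    have hne : 2 ^ K * r ≠ 0 := mul_ne_zero hn0.ne' hr0
    have hnear' : |2 ^ K * r| ≤ 4 * ((2 ^ ρ : ℕ) : ℝ) := by
      rw [hRc, abs_mul, abs_of_pos hn0]; exact hfar.le
    have f1 := abs_PP_near hR1 (kp K ρ κ) hne hnear'
    rw [hRc, ← hP0] at f1
    rw [mul_add]
    refine (abs_add_le _ _).trans ?_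
    have g1 : |S * ct| ≤ 2 * |N| := by
      rw [abs_mul]
      calc |S| * |ct| ≤ (2 * Real.pi * |N| * |r|) * (1 / (Real.pi * |r|)) :=
            mul_le_mul hSN hc1 (abs_nonneg _) (by positivity)
        _ = 2 * |N| := by field_simp
    have g2 : |S * (2 ^ K / (2 * Real.pi) * P0)| ≤ 50 * 2 ^ K / 2 ^ ρ := by
      rw [abs_mul, abs_mul, abs_of_pos (by positivity : (0:ℝ) < 2 ^ K / (2 * Real.pi))]
      calc |S| * (2 ^ K / (2 * Real.pi) * |P0|) ≤ 1 * (2 ^ K / (2 * Real.pi) * (300 / 2 ^ ρ)) :=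
            mul_le_mul hS (mul_le_mul_of_nonneg_left f1 (by positivity)) (by positivity)
              zero_le_one
        _ = (150 / Real.pi) * (2 ^ K / 2 ^ ρ) := by field_simp; ring
        _ ≤ 50 * (2 ^ K / 2 ^ ρ) := by
            apply mul_le_mul_of_nonneg_right _ (by positivity)
            rw [div_le_iff₀ hpi]; linarith
        _ = 50 * 2 ^ K / 2 ^ ρ := by ring
    have : (0:ℝ) ≤ 64 * 2 ^ κ := by positivity
    linarith

lemma X_aux {s : ℝ} (h0 : 0 ≤ s) (h1 : s ≤ 1) : 1 ≤ 4 * (1 + s)⁻¹ ^ 2 := by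
  have e : (1 + s)⁻¹ ^ 2 = 1 / (1 + s) ^ 2 := by rw [inv_pow, one_div]
  rw [e, mul_one_div, le_div_iff₀ (by positivity)]
  nlinarith

/-- **the kernel inequality.** -/
theorem kern {A : ℝ} (hA : 0 ≤ A) (K ρ κ : ℕ) {r S N : ℝ} (hr0 : r ≠ 0) (hr : |r| ≤ 1 / 2)
    {w : ℂ} (hS : |S| ≤ 1) (hSN : |S| ≤ 2 * Real.pi * |N| * |r|)
    (h1 : |w.im - S| ≤ A * (2 ^ κ * |r|)) (h2 : ‖w‖ ≤ A * (1 + 2 ^ κ * |r|)⁻¹ ^ 2) :
    |w.re - Real.cos (Real.pi * r) / Real.sin (Real.pi * r) * w.im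
      - 2 ^ K / (2 * Real.pi) * (S * (PP (2 ^ ρ) (kp K ρ κ) (2 ^ K * r)
          + (PP (2 ^ ρ) (kp K ρ κ) (2 ^ K * r - 2 ^ K)
          + PP (2 ^ ρ) (kp K ρ κ) (2 ^ K * r + 2 ^ K))))|
    ≤ 1202 + (3 * A + 256) * 2 ^ κ * (1 + 2 ^ κ * |r|)⁻¹ ^ 2
      + if 4 * 2 ^ ρ ≤ 2 ^ K * |r| then 300 / (2 ^ ρ * |r|) else 2 * |N| + 50 * 2 ^ K / 2 ^ ρ := by
  have hpi := Real.pi_pos
  have hpi3 : 3 < Real.pi := Real.pi_gt_three
  have hR1 : 1 ≤ 2 ^ ρ := Nat.one_le_two_pow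
  have hRc : ((2 ^ ρ : ℕ) : ℝ) = 2 ^ ρ := by push_cast; rfl
  have hn0 : (0:ℝ) < 2 ^ K := by positivity
  have hk0 : (0:ℝ) < 2 ^ κ := by positivity
  have hk1 : (1:ℝ) ≤ 2 ^ κ := one_le_pow₀ (by norm_num)
  have hra : 0 < |r| := abs_pos.2 hr0
  have hext := ext_aux (ρ := ρ) (m := kp K ρ κ) hn0 hr hS
  have hxr : Real.pi * r ≠ 0 := mul_ne_zero hpi.ne' hr0
  have hxr' : |Real.pi * r| ≤ Real.pi / 2 := by
    rw [abs_mul, abs_of_pos hpi]; nlinarith
  obtain ⟨hc1, -⟩ := cot_bounds hxr hxr'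
  rw [abs_mul, abs_of_pos hpi] at hc1
  have hmid := fun hs1 => mid_aux (K := K) (ρ := ρ) (κ := κ) hr0 hr hS hSN hs1
  set ct := Real.cos (Real.pi * r) / Real.sin (Real.pi * r) with hct
  set P0 := PP (2 ^ ρ) (kp K ρ κ) (2 ^ K * r) with hP0
  set Pm := PP (2 ^ ρ) (kp K ρ κ) (2 ^ K * r - 2 ^ K) with hPm
  set Pp := PP (2 ^ ρ) (kp K ρ κ) (2 ^ K * r + 2 ^ K) with hPp
  set X : ℝ := (1 + 2 ^ κ * |r|)⁻¹ ^ 2 with hX
  have hX0 : 0 < X := by positivity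
  set LL : ℝ := if 4 * 2 ^ ρ ≤ 2 ^ K * |r| then 300 / (2 ^ ρ * |r|)
    else 2 * |N| + 50 * 2 ^ K / 2 ^ ρ with hLL
  have hLL0 : 0 ≤ LL := by rw [hLL]; split_ifs <;> positivity
  have hT1 : |w.re| ≤ A * 2 ^ κ * X := by
    refine (Complex.abs_re_le_norm w).trans (h2.trans ?_)
    have := mul_le_mul_of_nonneg_left hk1 hA
    exact mul_le_mul_of_nonneg_right (by linarith) hX0.le
  have q3 : (0:ℝ) ≤ A * 2 ^ κ * X := by positivity
  have q4 : (0:ℝ) ≤ 2 ^ κ * X := by positivity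
  rcases le_or_gt (2 ^ κ * |r|) 1 with hs1 | hs1
  · have hX4 : 1 ≤ 4 * X := X_aux (by positivity) hs1
    have hT2 : |ct * (w.im - S)| ≤ 2 * (A * 2 ^ κ * X) := by
      rw [abs_mul]
      calc |ct| * |w.im - S| ≤ 1 / (Real.pi * |r|) * (A * (2 ^ κ * |r|)) :=
            mul_le_mul hc1 h1 (abs_nonneg _) (by positivity)
        _ = A * 2 ^ κ / Real.pi := by field_simp
        _ ≤ A * 2 ^ κ / 3 := by
            apply div_le_div_of_nonneg_left (by positivity) (by norm_num) hpi3.le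
        _ ≤ 2 * (A * 2 ^ κ * X) := by
            have h : A * 2 ^ κ * 1 ≤ A * 2 ^ κ * (4 * X) :=
              mul_le_mul_of_nonneg_left hX4 (by positivity)
            have h' : A * 2 ^ κ * (4 * X) = 4 * (A * 2 ^ κ * X) := by ring
            linarith
    have hT3 := hmid hs1
    have hkX : 64 * 2 ^ κ ≤ 256 * (2 ^ κ * X) := by
      have h : (2:ℝ) ^ κ * 1 ≤ 2 ^ κ * (4 * X) := mul_le_mul_of_nonneg_left hX4 hk0.le
      linarith
    have e : w.re - ct * w.im - 2 ^ K / (2 * Real.pi) * (S * (P0 + (Pm + Pp)))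
        = w.re - ct * (w.im - S) - S * (ct + 2 ^ K / (2 * Real.pi) * P0)
          - 2 ^ K / (2 * Real.pi) * (S * (Pm + Pp)) := by ring
    rw [e]
    have q1 := abs_sub (w.re - ct * (w.im - S) - S * (ct + 2 ^ K / (2 * Real.pi) * P0))
      (2 ^ K / (2 * Real.pi) * (S * (Pm + Pp)))
    have q2 := abs_sub (w.re - ct * (w.im - S)) (S * (ct + 2 ^ K / (2 * Real.pi) * P0))
    have q5 := abs_sub w.re (ct * (w.im - S))
    linarith
  · have hP00 : P0 = 0 := by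
      rcases kp_cases K ρ κ with h | ⟨h0, h⟩
      · refine PP_eq_zero hR1 _ ?_
        rw [hRc, abs_mul, abs_of_pos hn0, ← h]
        have hpos : (0:ℝ) < 8 * 2 ^ ρ * 2 ^ kp K ρ κ := by positivity
        calc (4:ℝ) * 2 ^ ρ * 2 ^ kp K ρ κ ≤ 8 * 2 ^ ρ * 2 ^ kp K ρ κ * 1 := by linarith
          _ ≤ 8 * 2 ^ ρ * 2 ^ kp K ρ κ * (2 ^ κ * |r|) :=
              mul_le_mul_of_nonneg_left hs1.le hpos.le
          _ = 8 * 2 ^ ρ * 2 ^ kp K ρ κ * 2 ^ κ * |r| := by ring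
      · rw [hP0, h0]
        simp [PP]
    have hT2 : |ct * w.im| ≤ A * 2 ^ κ * X := by
      rw [abs_mul]
      have g1 : |w.im| ≤ A * X := (Complex.abs_im_le_norm w).trans h2
      have g2 : 1 / (Real.pi * |r|) ≤ 2 ^ κ := by
        rw [div_le_iff₀ (by positivity)]
        have : 2 ^ κ * (Real.pi * |r|) = Real.pi * (2 ^ κ * |r|) := by ring
        rw [this]; nlinarith
      calc |ct| * |w.im| ≤ 2 ^ κ * (A * X) :=
            mul_le_mul (hc1.trans g2) g1 (abs_nonneg _) hk0.le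
        _ = A * 2 ^ κ * X := by ring
    have e : w.re - ct * w.im - 2 ^ K / (2 * Real.pi) * (S * (P0 + (Pm + Pp)))
        = w.re - ct * w.im - 2 ^ K / (2 * Real.pi) * (S * (Pm + Pp)) := by rw [hP00]; ring
    rw [e]
    have q1 := abs_sub (w.re - ct * w.im) (2 ^ K / (2 * Real.pi) * (S * (Pm + Pp)))
    have q2 := abs_sub w.re (ct * w.im)
    linarith

end Vale.Agent.P091.TOP.H827
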